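import Vale.Agent.Lib.P161.WordTree

/-!
# P161: the tree of words is acyclic
-/

namespace Vale.Agent.Lib.P161

theorem wordTree_adj_iff {r b : ℕ} (x y : Word r b) :
    (wordTree r b).Adj x y ↔ (∃ a, y.1 = a :: x.1) ∨ (∃ a, x.1 = a :: y.1) := by
  unfold wordTree
  rw [SimpleGraph.fromRel_adj]
  constructor
  · rintro ⟨_, h⟩
    exact h
  · intro h
    refine ⟨?_, h⟩
    rintro rfl
    rcases h with ⟨a, h⟩ | ⟨a, h⟩ <;> exact absurd (congrArg List.length h) (by simp)

theorem walk_invariant {V : Type} {G : SimpleGraph V} (S : V → Prop)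
    (h : ∀ u v, G.Adj u v → (S u ↔ S v)) {u v : V} (p : G.Walk u v) : S u ↔ S v := by
  induction p with
  | nil => exact Iff.rfl
  | cons hadj _ ih => exact (h _ _ hadj).trans ih

/-- the step of the invariant: an edge `m ~ c :: m` other than `x ~ a :: x` -/
theorem suffix_step {r b : ℕ} {x y m m' : Word r b} {a c : ℕ} (hy : y.1 = a :: x.1)
    (hm : m'.1 = c :: m.1) (hne : ¬ (m = x ∧ m' = y)) : (y.1 <:+ m.1 ↔ y.1 <:+ m'.1) := by
  constructor
  · intro h
    rw [hm]
    exact h.trans (List.suffix_cons c m.1)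
  · intro h
    rw [hm, List.suffix_cons_iff] at h
    rcases h with h | h
    · exfalso
      apply hne
      have h1 : m' = y := Subtype.ext (by rw [hm, h])
      have h2 : a :: x.1 = c :: m.1 := by rw [← hy, h]
      have h3 : x.1 = m.1 := (List.cons.inj h2).2
      exact ⟨Subtype.ext h3.symm, h1⟩
    · exact h

theorem not_reachable_of_cons {r b : ℕ} {x y : Word r b} {a : ℕ} (hy : y.1 = a :: x.1) :
    ¬ ((wordTree r b).deleteEdges {s(x, y)}).Reachable x y := by
  rintro ⟨p⟩
  have hinv := walk_invariant (G := (wordTree r b).deleteEdges {s(x, y)})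
    (fun m => y.1 <:+ m.1) (by
      intro m m' hadj
      rw [SimpleGraph.deleteEdges_adj, wordTree_adj_iff] at hadj
      obtain ⟨h1, h2⟩ := hadj
      have h3 : s(m, m') ≠ s(x, y) := by
        intro h
        exact h2 (by simp [h])
      rcases h1 with ⟨c, hc⟩ | ⟨c, hc⟩
      · refine suffix_step hy hc ?_
        rintro ⟨rfl, rfl⟩
        exact h3 rfl
      · refine (suffix_step hy hc ?_).symm
        rintro ⟨rfl, rfl⟩
        exact h3 Sym2.eq_swap) p
  have h1 : y.1 <:+ x.1 := hinv.2 List.suffix_rfl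
  have h2 := h1.length_le
  rw [hy] at h2
  simp at h2

theorem wordTree_isAcyclic (r b : ℕ) : (wordTree r b).IsAcyclic := by
  rw [SimpleGraph.isAcyclic_iff_forall_adj_isBridge]
  intro v w hadj
  rw [SimpleGraph.isBridge_iff]
  rcases (wordTree_adj_iff v w).1 hadj with ⟨a, h⟩ | ⟨a, h⟩
  · exact not_reachable_of_cons h
  · intro hr
    have h1 := not_reachable_of_cons h
    rw [Sym2.eq_swap] at h1
    exact h1 hr.symm

end Vale.Agent.Lib.P161
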