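import Vale.Agent.Lib.P161.WordTree

/-!
# P161: the tree of words is connected
-/

namespace Vale.Agent.Lib.P161

theorem good_tail_conn {r b a : ℕ} {l : List ℕ} (h : Good r b (a :: l)) : Good r b l := by
  cases l with
  | nil => trivial
  | cons c l => exact h.2

theorem reachable_root (r b : ℕ) : ∀ (l : List ℕ) (h : Good r b l),
    (wordTree r b).Reachable (Word.root r b) ⟨l, h⟩ := by
  intro l
  induction l with
  | nil =>
    intro h
    exact SimpleGraph.Reachable.refl _
  | cons a l ih =>
    intro h
    have h' := good_tail_conn h
    refine (ih h').trans (SimpleGraph.Adj.reachable ?_)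
    refine (SimpleGraph.fromRel_adj _ _ _).2 ⟨?_, Or.inl ⟨a, rfl⟩⟩
    intro heq
    have h1 : l = a :: l := congrArg Subtype.val heq
    have h2 := congrArg List.length h1
    simp at h2

theorem wordTree_connected (r b : ℕ) : (wordTree r b).Connected := by
  have : Nonempty (Word r b) := ⟨Word.root r b⟩
  rw [SimpleGraph.connected_iff]
  refine ⟨fun x y => ?_, inferInstance⟩
  exact (reachable_root r b x.1 x.2).symm.trans (reachable_root r b y.1 y.2)

end Vale.Agent.Lib.P161
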