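import Vale.Agent.Lib.P161.WordTree

/-!
# P161: degrees in the tree of words
-/

namespace Vale.Agent.Lib.P161

theorem wordTree_adj_iff_deg (r b : ℕ) (x y : Word r b) :
    (wordTree r b).Adj x y ↔ (∃ a, y.1 = a :: x.1) ∨ (∃ a, x.1 = a :: y.1) := by
  unfold wordTree
  rw [SimpleGraph.fromRel_adj]
  constructor
  · rintro ⟨_, h⟩
    exact h
  · intro h
    refine ⟨?_, h⟩
    rintro rfl
    rcases h with ⟨a, ha⟩ | ⟨a, ha⟩
    · have := congrArg List.length ha
      simp at this
    · have := congrArg List.length ha
      simp at this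

theorem encard_range_fin {α : Type*} {n : ℕ} (f : Fin n → α) (hf : Function.Injective f) :
    (Set.range f).encard = n := by
  rw [← Set.image_univ, hf.encard_image, Set.encard_univ, ENat.card_eq_coe_fintype_card,
    Fintype.card_fin]

theorem encard_neighborSet_wordRoot (r b : ℕ) :
    ((wordTree r b).neighborSet (Word.root r b)).encard = r := by
  have hgood : ∀ a : Fin r, Good r b [a.1] := fun a => a.2
  let f : Fin r → Word r b := fun a => ⟨[a.1], hgood a⟩
  have hf : Function.Injective f := by
    intro a c h
    have h1 : [a.1] = [c.1] := congrArg Subtype.val h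
    apply Fin.ext
    simpa using h1
  have hset : (wordTree r b).neighborSet (Word.root r b) = Set.range f := by
    ext y
    rw [SimpleGraph.mem_neighborSet, wordTree_adj_iff_deg]
    constructor
    · rintro (⟨a, ha⟩ | ⟨a, ha⟩)
      · have hy := y.2
        have ha' : y.1 = [a] := ha
        rw [ha'] at hy
        exact ⟨⟨a, hy⟩, Subtype.ext ha'.symm⟩
      · exact absurd ha (by simp [Word.root])
    · rintro ⟨a, rfl⟩
      exact Or.inl ⟨a.1, rfl⟩
  rw [hset, encard_range_fin f hf]

theorem encard_neighborSet_word (r b : ℕ) (x : Word r b) (hx : x ≠ Word.root r b) :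
    ((wordTree r b).neighborSet x).encard = b + 1 := by
  obtain ⟨c, l, hcl⟩ : ∃ c l, x.1 = c :: l := by
    rcases hxl : x.1 with _ | ⟨c, l⟩
    · exact absurd (Subtype.ext hxl : x = Word.root r b) hx
    · exact ⟨c, l, rfl⟩
  have hl : Good r b (c :: l) := hcl ▸ x.2
  have hpar : Good r b l := by
    cases l with
    | nil => trivial
    | cons c' l' => exact hl.2
  have hgood : ∀ a : Fin b, Good r b (a.1 :: c :: l) := fun a => ⟨a.2, hl⟩
  let p : Word r b := ⟨l, hpar⟩
  let f : Fin b → Word r b := fun a => ⟨a.1 :: c :: l, hgood a⟩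
  have hf : Function.Injective f := by
    intro a d h
    have h1 : a.1 :: c :: l = d.1 :: c :: l := congrArg Subtype.val h
    apply Fin.ext
    simpa using h1
  have hset : (wordTree r b).neighborSet x = insert p (Set.range f) := by
    ext y
    rw [SimpleGraph.mem_neighborSet, wordTree_adj_iff_deg, Set.mem_insert_iff, hcl]
    constructor
    · rintro (⟨a, ha⟩ | ⟨a, ha⟩)
      · right
        have hy := y.2
        rw [ha] at hy
        exact ⟨⟨a, hy.1⟩, Subtype.ext ha.symm⟩
      · left
        apply Subtype.ext
        simp only [List.cons.injEq] at ha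
        exact ha.2.symm
    · rintro (rfl | ⟨a, rfl⟩)
      · exact Or.inr ⟨c, rfl⟩
      · exact Or.inl ⟨a.1, rfl⟩
  have hnot : p ∉ Set.range f := by
    rintro ⟨a, ha⟩
    have h1 : a.1 :: c :: l = l := congrArg Subtype.val ha
    have := congrArg List.length h1
    simp only [List.length_cons] at this
    omega
  rw [hset, Set.encard_insert_of_notMem hnot, encard_range_fin f hf]

end Vale.Agent.Lib.P161
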